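import Vale.Agent.P181.Defs
import Vale.Agent.P181.Final3

/-- Foulkes' inequality for partitions with at most three parts and third part at most three:
for `5 ≤ a ≤ b` and `l` a partition of `a * b` with at most three parts and `l 2 ≤ 3`, the
multiplicity of `s_l` in `h_a[h_b]` is at most its multiplicity in `h_b[h_a]`. -/
theorem Vale.Agent.Results.P181.ThreeRowsThirdThree.result (a b : ℕ) (ha : 5 ≤ a) (hab : a ≤ b)
    (l : Fin 3 → ℕ) (h01 : l 1 ≤ l 0) (h12 : l 2 ≤ l 1) (hsum : l 0 + l 1 + l 2 = a * b)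
    (h3 : l 2 ≤ 3) :
    Vale.Agent.P181.plethMult a b l ≤ Vale.Agent.P181.plethMult b a l :=
  Vale.Agent.P181.pleth_le3 a b ha hab l h01 h12 hsum h3
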